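import Vale.Agent.Lib.P184.Lin.Main
import Vale.Agent.Lib.P184.Tits.Main

/-!
# P184 / linear groups, module 6: positive characteristic, and transcendental eigenvalues

FROZEN STATEMENTS (do not change them; fill the sorries).

ROUTE for `exists_eigenvalue_charP`.  `L := AlgebraicClosure F`, `M' := M.map (algebraMap F L)`, `χ := M'.charpoly`, monic of degree `n`,
splits over `L` (`IsAlgClosed.splits`), so `χ = ∏ (X - C a)` over its `n` roots.  Suppose every root `a` has `a ^ k = 1` for some `k > 0`.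
Take a common multiple `m > 0`.  Then `X - C a ∣ X ^ m - 1` for every root, so `χ ∣ (X ^ m - 1) ^ n`, and Cayley-Hamilton
(`Matrix.aeval_self_charpoly`) gives `(M' ^ m - 1) ^ n = 0`.  Choose `j` with `n ≤ p ^ j`: `(M' ^ m - 1) ^ (p ^ j) = 0`, and in
characteristic `p` (`CharP (Matrix (Fin n) (Fin n) L) p` for `n > 0`: `Matrix.charP`; `sub_pow_char_pow_of_commute`)
`(M' ^ m - 1) ^ (p ^ j) = M' ^ (m * p ^ j) - 1`.  So `M' ^ (m p ^ j) = 1`, hence `M ^ (m p ^ j) = 1` (injectivity of `Matrix.map`), against `hM`.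
(`n = 0`: all matrices are equal, `hM 1` is absurd.)  So some root `lam` is not a root of unity; eigenvector from
`Matrix.exists_mulVec_eq_zero_iff` applied to `lam • 1 - M'` (determinant `= χ.eval lam = 0`: `Matrix.eval_charpoly`).
The file `Lin/QuasiUnip.lean` contains the same argument over number fields: share lemmas if convenient.

ROUTE for `trace_vanish_of_charP`: `L := AlgebraicClosure F` has `CharP L p` (`charP_of_injective_algebraMap`);
`ρ' := (Matrix.GeneralLinearGroup.map (algebraMap F L)).comp ρ`; `exists_eigenvalue_charP` for `M := ρ g` (powers of units: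
`(ρ g : Matrix _ _ F) ^ m = 1 ↔ ρ g ^ m = 1`, `Units.ext`), `Tits.exists_abv_charP p lam`, then `trace_vanish_of_eigenvalue`.
-/

namespace Vale.Agent.Lib.P184.Lin

open scoped BigOperators

private theorem common_exponent {L : Type*} [Field L] (s : Multiset L)
    (h : ∀ a ∈ s, ∃ k : ℕ, 0 < k ∧ a ^ k = 1) : ∃ m : ℕ, 0 < m ∧ ∀ a ∈ s, a ^ m = 1 := by
  induction s using Multiset.induction_on with
  | empty => exact ⟨1, one_pos, fun a ha => absurd ha (Multiset.notMem_zero a)⟩
  | cons b s ih =>
    obtain ⟨m, hm0, hm⟩ := ih fun a ha => h a (Multiset.mem_cons_of_mem ha)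
    obtain ⟨k, hk0, hk⟩ := h b (Multiset.mem_cons_self b s)
    refine ⟨k * m, Nat.mul_pos hk0 hm0, fun a ha => ?_⟩
    rcases Multiset.mem_cons.mp ha with rfl | ha'
    · rw [pow_mul, hk, one_pow]
    · rw [mul_comm, pow_mul, hm a ha', one_pow]

theorem exists_eigenvalue_charP {F : Type*} [Field F] (p : ℕ) [Fact p.Prime] [CharP F p] {n : ℕ}
    (M : Matrix (Fin n) (Fin n) F) (hM : ∀ m : ℕ, 0 < m → M ^ m ≠ 1) :
    ∃ (lam : AlgebraicClosure F) (w : Fin n → AlgebraicClosure F), w ≠ 0 ∧
      (M.map (algebraMap F (AlgebraicClosure F))).mulVec w = lam • w ∧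
      ∀ k : ℕ, 0 < k → lam ^ k ≠ 1 := by
  classical
  rcases Nat.eq_zero_or_pos n with rfl | hn
  · exact absurd (Subsingleton.elim _ _) (hM 1 one_pos)
  have : Nonempty (Fin n) := ⟨⟨0, hn⟩⟩
  let L := AlgebraicClosure F
  let f : F →+* L := algebraMap F L
  have : CharP L p := charP_of_injective_algebraMap (algebraMap F L).injective p
  have : CharP (Matrix (Fin n) (Fin n) L) p := Matrix.charP p
  have hsp : ((M.map f).charpoly).Splits := IsAlgClosed.splits _
  have hmon : (M.map f).charpoly.Monic := Matrix.charpoly_monic _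
  have hprod := hsp.eq_prod_roots_of_monic hmon
  have hcard : Multiset.card (M.map f).charpoly.roots = n := by
    rw [← hsp.natDegree_eq_card_roots]; simp
  by_contra hcon
  have hroot : ∀ a ∈ (M.map f).charpoly.roots, ∃ k : ℕ, 0 < k ∧ a ^ k = 1 := by
    intro a ha
    by_contra hno
    have hno' : ∀ k : ℕ, 0 < k → a ^ k ≠ 1 := fun k hk h1 => hno ⟨k, hk, h1⟩
    have hev : (M.map f).charpoly.eval a = 0 := (Polynomial.mem_roots'.mp ha).2
    rw [Matrix.eval_charpoly] at hev
    obtain ⟨w, hw, hw2⟩ := Matrix.exists_mulVec_eq_zero_iff.2 hev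
    refine hcon ⟨a, w, hw, ?_, hno'⟩
    rw [Matrix.sub_mulVec, sub_eq_zero] at hw2
    rw [← hw2]
    simp [Matrix.scalar_apply]
  obtain ⟨m, hm0, hm⟩ := common_exponent _ hroot
  have hdvd : (M.map f).charpoly ∣ ((Polynomial.X : Polynomial L) ^ m - 1) ^ n := by
    rw [hprod]
    have h1 := Multiset.prod_dvd_prod_of_dvd (S := (M.map f).charpoly.roots)
      (fun a : L => (Polynomial.X : Polynomial L) - Polynomial.C a)
      (fun _ => (Polynomial.X : Polynomial L) ^ m - 1) (by
        intro a ha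
        rw [Polynomial.dvd_iff_isRoot]
        simp [hm a ha])
    rw [Multiset.map_const', Multiset.prod_replicate, hcard] at h1
    exact h1
  have hzero : ((M.map f) ^ m - 1) ^ n = 0 := by
    obtain ⟨r, hr⟩ := hdvd
    have h2 := congrArg (Polynomial.aeval (M.map f)) hr
    rw [map_mul, Matrix.aeval_self_charpoly, zero_mul] at h2
    simpa using h2
  have hp : 1 < p := (Fact.out : p.Prime).one_lt
  have hle : n ≤ p ^ n := (Nat.lt_pow_self hp).le
  have hzero2 : ((M.map f) ^ m - 1) ^ (p ^ n) = 0 := by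
    rw [← Nat.sub_add_cancel hle, pow_add, hzero, mul_zero]
  have hfrob : ((M.map f) ^ m - 1) ^ (p ^ n) = ((M.map f) ^ m) ^ (p ^ n) - 1 := by
    rw [sub_pow_char_pow_of_commute p n (Commute.one_right _), one_pow]
  have hone : (M.map f) ^ (m * p ^ n) = 1 := by
    rw [pow_mul, ← sub_eq_zero, ← hfrob, hzero2]
  apply hM (m * p ^ n) (Nat.mul_pos hm0 (pow_pos (by omega) n))
  have hinj : Function.Injective (fun A : Matrix (Fin n) (Fin n) F => A.map f) :=
    Matrix.map_injective f.injective
  apply hinj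
  have h3 : f.mapMatrix (M ^ (m * p ^ n)) = (f.mapMatrix M) ^ (m * p ^ n) := map_pow _ _ _
  have h4 : f.mapMatrix (1 : Matrix (Fin n) (Fin n) F) = 1 := map_one _
  change f.mapMatrix (M ^ (m * p ^ n)) = f.mapMatrix 1
  rw [h3, h4]
  exact hone

/-- Positive characteristic: the coefficient vanishes at every element whose image has infinite order. -/
theorem trace_vanish_of_charP {G : Type*} [Group G] {q : ℕ} (e : Matrix (Fin q) (Fin q) (G → ℂ))
    (hsum : ∀ i j, Summable fun g => ‖e i j g‖)
    (hidem : ∀ i j g, ∑ k, ∑' h, e i k h * e k j (h⁻¹ * g) = e i j g)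
    {F : Type*} [Field F] (p : ℕ) [Fact p.Prime] [CharP F p] {n : ℕ}
    (ρ : G →* Matrix.GeneralLinearGroup (Fin n) F) (g : G) (hg : ∀ m : ℕ, 0 < m → ρ g ^ m ≠ 1) :
    ∑' x : (ConjClasses.mk g).carrier, ∑ i, e i i x = 0 := by
  have hM : ∀ m : ℕ, 0 < m → (ρ g : Matrix (Fin n) (Fin n) F) ^ m ≠ 1 := by
    intro m hm h1
    apply hg m hm
    apply Units.ext
    rw [Units.val_pow_eq_pow_val, h1, Units.val_one]
  obtain ⟨lam, w, hw, hev, hlam⟩ := exists_eigenvalue_charP p (ρ g : Matrix (Fin n) (Fin n) F) hM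
  have hCharL : CharP (AlgebraicClosure F) p :=
    charP_of_injective_algebraMap (algebraMap F (AlgebraicClosure F)).injective p
  obtain ⟨v, hv⟩ := Tits.exists_abv_charP p lam hlam
  exact trace_vanish_of_eigenvalue e hsum hidem v
    ((Matrix.GeneralLinearGroup.map (algebraMap F (AlgebraicClosure F))).comp ρ) g lam w hw
    (by simpa using hev) hv

/-- Any field: the coefficient vanishes if some eigenvalue is transcendental over a subfield `k0`
(for instance the prime field). -/
theorem trace_vanish_of_transcendental {G : Type*} [Group G] {q : ℕ}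
    (e : Matrix (Fin q) (Fin q) (G → ℂ))
    (hsum : ∀ i j, Summable fun g => ‖e i j g‖)
    (hidem : ∀ i j g, ∑ k, ∑' h, e i k h * e k j (h⁻¹ * g) = e i j g)
    {k0 F : Type*} [Field k0] [Field F] [Algebra k0 F] {n : ℕ}
    (ρ : G →* Matrix.GeneralLinearGroup (Fin n) F) (g : G) (lam : F) (w : Fin n → F) (hw : w ≠ 0)
    (hev : (ρ g : Matrix (Fin n) (Fin n) F).mulVec w = lam • w) (hlam : Transcendental k0 lam) :
    ∑' x : (ConjClasses.mk g).carrier, ∑ i, e i i x = 0 := by
  obtain ⟨v, hv⟩ := Tits.exists_abv_of_transcendental lam hlam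
  exact trace_vanish_of_eigenvalue e hsum hidem v ρ g lam w hw hev hv

end Vale.Agent.Lib.P184.Lin
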