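import Vale.Agent.Lib.P184.Lin.QuasiUnip
import Vale.Agent.Lib.P184.Tits.Complex

/-!
# P184 / linear groups, module 7: complex linear representations

FROZEN STATEMENTS (do not change them; fill the sorry).

ROUTE for `exists_eigenvalue_complex`: copy the proof of `exists_eigenvalue_not_root_of_unity` in `Lin/QuasiUnip.lean` with `L = K = ℂ`, `f = id`; the characteristic polynomial splits by `IsAlgClosed.splits`.
-/

namespace Vale.Agent.Lib.P184.Lin

open scoped BigOperators

theorem exists_eigenvalue_complex {n : ℕ} (M : Matrix (Fin n) (Fin n) ℂ)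
    (hM : ∀ m : ℕ, 0 < m → (M ^ m - 1) ^ n ≠ 0) :
    ∃ (lam : ℂ) (w : Fin n → ℂ), w ≠ 0 ∧ M.mulVec w = lam • w ∧ ∀ k : ℕ, 0 < k → lam ^ k ≠ 1 := by
  classical
  have hsp : (M.charpoly).Splits := IsAlgClosed.splits _
  have hmon : M.charpoly.Monic := Matrix.charpoly_monic _
  have hprod := hsp.eq_prod_roots_of_monic hmon
  have hcard : Multiset.card M.charpoly.roots = n := by
    rw [← hsp.natDegree_eq_card_roots]; simp
  by_contra hcon
  have hroot : ∀ a ∈ M.charpoly.roots, ∃ k : ℕ, 0 < k ∧ a ^ k = 1 := by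
    intro a ha
    by_contra hno
    have hno' : ∀ k : ℕ, 0 < k → a ^ k ≠ 1 := fun k hk h1 => hno ⟨k, hk, h1⟩
    have hev : M.charpoly.eval a = 0 := (Polynomial.mem_roots'.mp ha).2
    rw [Matrix.eval_charpoly] at hev
    obtain ⟨w, hw, hw2⟩ := Matrix.exists_mulVec_eq_zero_iff.2 hev
    refine hcon ⟨a, w, hw, ?_, hno'⟩
    rw [Matrix.sub_mulVec, sub_eq_zero] at hw2
    rw [← hw2]
    simp [Matrix.scalar_apply]
  obtain ⟨m, hm0, hm⟩ := exists_common_exponent _ hroot
  have hdvd : M.charpoly ∣ ((Polynomial.X : Polynomial ℂ) ^ m - 1) ^ n := by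
    rw [hprod]
    have h1 := Multiset.prod_dvd_prod_of_dvd (S := M.charpoly.roots)
      (fun a : ℂ => (Polynomial.X : Polynomial ℂ) - Polynomial.C a)
      (fun _ => (Polynomial.X : Polynomial ℂ) ^ m - 1) (by
        intro a ha
        rw [Polynomial.dvd_iff_isRoot]
        simp [hm a ha])
    rw [Multiset.map_const', Multiset.prod_replicate, hcard] at h1
    exact h1
  have hzero : (M ^ m - 1) ^ n = 0 := by
    obtain ⟨r, hr⟩ := hdvd
    have h2 := congrArg (Polynomial.aeval M) hr
    rw [map_mul, Matrix.aeval_self_charpoly, zero_mul] at h2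
    simpa using h2
  exact hM m hm0 hzero

/-- Complex linear representations: the coefficient vanishes at every element whose image is not quasi-unipotent. -/
theorem trace_vanish_of_complex {G : Type*} [Group G] {q : ℕ} (e : Matrix (Fin q) (Fin q) (G → ℂ))
    (hsum : ∀ i j, Summable fun g => ‖e i j g‖)
    (hidem : ∀ i j g, ∑ k, ∑' h, e i k h * e k j (h⁻¹ * g) = e i j g)
    {n : ℕ} (ρ : G →* Matrix.GeneralLinearGroup (Fin n) ℂ) (g : G)
    (hg : ∀ m : ℕ, 0 < m → ((ρ g : Matrix (Fin n) (Fin n) ℂ) ^ m - 1) ^ n ≠ 0) :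
    ∑' x : (ConjClasses.mk g).carrier, ∑ i, e i i x = 0 := by
  obtain ⟨lam, w, hw, hev, hlam⟩ := exists_eigenvalue_complex _ hg
  obtain ⟨v, hv⟩ := Tits.exists_abv_complex lam hlam
  exact trace_vanish_of_eigenvalue e hsum hidem v ρ g lam w hw hev hv

end Vale.Agent.Lib.P184.Lin
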