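import Mathlib

/-!
# P184 / linear groups, module 3: an element of a number field that is not a root of unity is detected
by an absolute value

FROZEN STATEMENT (do not change it; fill the sorry).

ROUTE.  Suppose `v x = 1` for every `v : AbsoluteValue K ℝ`.
* For every `P : IsDedekindDomain.HeightOneSpectrum (NumberField.RingOfIntegers K)` the absolute value
  `NumberField.RingOfIntegers.HeightOneSpectrum.adicAbv K P` (file
  `Mathlib/NumberTheory/NumberField/Completion/FinitePlace.lean`, `adicAbv_def`:
  `adicAbv K v x = toNNReal (absNorm_ne_zero v) (v.valuation K x)`) gives `P.valuation K x ≤ 1`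
  (`WithZeroMulInt.toNNReal` is strictly monotone: `WithZeroMulInt.toNNReal_strictMono`, or the lemmas
  `toNNReal_le_one_iff` / `toNNReal_lt_one_iff`), so by
  `IsDedekindDomain.HeightOneSpectrum.mem_integers_of_valuation_le_one` `x` is in the range of
  `algebraMap (𝓞 K) K`, hence `IsIntegral ℤ x`.
* For every `φ : K →+* ℂ` the absolute value `(NumberField.place φ)` (or
  `NormedField.toAbsoluteValue ℂ` composed with `φ`: `AbsoluteValue.comp _ φ.injective`) gives `‖φ x‖ = 1`.
* `NumberField.Embeddings.pow_eq_one_of_norm_eq_one K ℂ hxi hx : ∃ n, 0 < n ∧ x ^ n = 1`.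
-/

namespace Vale.Agent.Lib.P184.Lin

theorem exists_abv_ne_one {K : Type*} [Field K] [NumberField K] (x : K)
    (hx : ∀ k : ℕ, 0 < k → x ^ k ≠ 1) : ∃ v : AbsoluteValue K ℝ, v x ≠ 1 := by
  by_contra hcon
  push Not at hcon
  -- integrality
  have hint : IsIntegral ℤ x := by
    have hmem : x ∈ (algebraMap (NumberField.RingOfIntegers K) K).range := by
      apply IsDedekindDomain.HeightOneSpectrum.mem_integers_of_valuation_le_one
      intro P
      have h1 := hcon (NumberField.HeightOneSpectrum.adicAbv K P)
      rw [NumberField.HeightOneSpectrum.adicAbv_def] at h1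
      have h2 : WithZeroMulInt.toNNReal (NumberField.HeightOneSpectrum.absNorm_ne_zero P)
          (P.valuation K x) ≤ 1 := by
        have : ((WithZeroMulInt.toNNReal (NumberField.HeightOneSpectrum.absNorm_ne_zero P)
          (P.valuation K x) : NNReal) : ℝ) ≤ 1 := h1.le
        exact_mod_cast this
      exact (WithZeroMulInt.toNNReal_le_one_iff
        (NumberField.HeightOneSpectrum.one_lt_absNorm_nnreal P)).1 h2
    obtain ⟨y, rfl⟩ := hmem
    exact y.isIntegral_coe
  have hemb : ∀ φ : K →+* ℂ, ‖φ x‖ = 1 := by
    intro φ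
    exact hcon (NumberField.place φ)
  obtain ⟨n, hn, hxn⟩ := NumberField.Embeddings.pow_eq_one_of_norm_eq_one K ℂ hint hemb
  exact hx n hn hxn

end Vale.Agent.Lib.P184.Lin
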