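import Mathlib

/-!
# P184 / linear groups, module 2: a matrix model of the eigenspace

FROZEN STATEMENT (do not change it; fill the sorry).

`M` is an `n × n` matrix over a field with eigenvalue `lam`.  There are `d > 0` and matrices
`B : n × d` (columns = a basis of the eigenspace `W = ker (M - lam)`) and `C : d × n` (a left inverse of `B`)
such that `M * B = lam • B` and every matrix `Z` commuting with `M` satisfies `Z * B = B * (C * Z * B)`
(because `Z` maps `W` to `W`).

ROUTE.  `W : Submodule F (Fin n → F) := LinearMap.ker (Matrix.toLin' M - lam • LinearMap.id)` (or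
`Module.End.eigenspace (Matrix.toLin' M) lam`), `d = Module.finrank F W > 0` since `w ∈ W`, `w ≠ 0`;
`b := Module.finBasis F W`; `B i j := (b j : Fin n → F) i`.  The linear map `Matrix.toLin' B` (equivalently
`fun c => ∑ j, c j • (b j : Fin n → F)`) is injective, so it has a linear left inverse
(`LinearMap.exists_leftInverse_of_injective`); `C := LinearMap.toMatrix'` of it.
For `Z` commuting with `M`, every column `Z *ᵥ b j` lies in `W`, hence equals `B *ᵥ x_j` with
`x_j = b.repr ⟨Z *ᵥ b j, _⟩`; so `Z * B = B * X`, and `C * Z * B = C * B * X = X`.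
-/

namespace Vale.Agent.Lib.P184.Lin

open scoped BigOperators

theorem exists_eigen_section {F : Type*} [Field F] {n : ℕ} (M : Matrix (Fin n) (Fin n) F) (lam : F)
    (w : Fin n → F) (hw : w ≠ 0) (hev : M.mulVec w = lam • w) :
    ∃ (d : ℕ) (B : Matrix (Fin n) (Fin d) F) (C : Matrix (Fin d) (Fin n) F), 0 < d ∧ C * B = 1 ∧
      M * B = lam • B ∧ ∀ Z : Matrix (Fin n) (Fin n) F, Z * M = M * Z → Z * B = B * (C * Z * B) := by
  classical
  let W : Submodule F (Fin n → F) := LinearMap.ker (Matrix.toLin' M - lam • LinearMap.id)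
  have hmem : ∀ x : Fin n → F, x ∈ W ↔ M.mulVec x = lam • x := by
    intro x
    simp [W, LinearMap.mem_ker, sub_eq_zero]
  have hnt : Nontrivial W := ⟨⟨⟨w, (hmem w).mpr hev⟩, 0, fun h => hw (congrArg Subtype.val h)⟩⟩
  let b := Module.finBasis F W
  let B : Matrix (Fin n) (Fin (Module.finrank F W)) F := Matrix.of fun i j => (b j : Fin n → F) i
  have hBcol : ∀ (A : Matrix (Fin n) (Fin n) F) (i : Fin n) (j : Fin (Module.finrank F W)),
      (A * B) i j = A.mulVec (b j : Fin n → F) i := by
    intro A i j
    simp [Matrix.mul_apply, Matrix.mulVec, dotProduct, B]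
  have hBvec : ∀ c : Fin (Module.finrank F W) → F,
      B.mulVec c = ((b.equivFun.symm c : W) : Fin n → F) := by
    intro c
    rw [Module.Basis.equivFun_symm_apply]
    funext i
    simp [Matrix.mulVec, dotProduct, B, mul_comm]
  have hinj : LinearMap.ker (Matrix.toLin' B) = ⊥ := by
    rw [LinearMap.ker_eq_bot]
    intro c c' hcc
    simp only [Matrix.toLin'_apply, hBvec] at hcc
    exact b.equivFun.symm.injective (Subtype.ext hcc)
  obtain ⟨g, hg⟩ := LinearMap.exists_leftInverse_of_injective (Matrix.toLin' B) hinj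
  have hCB : LinearMap.toMatrix' g * B = 1 := by
    have h1 : LinearMap.toMatrix' (g ∘ₗ Matrix.toLin' B) = 1 := by
      rw [hg, LinearMap.toMatrix'_id]
    rw [LinearMap.toMatrix'_comp, LinearMap.toMatrix'_toLin'] at h1
    exact h1
  refine ⟨Module.finrank F W, B, LinearMap.toMatrix' g, Module.finrank_pos, hCB, ?_, ?_⟩
  · ext i j
    rw [hBcol, (hmem _).mp (b j).2]
    simp [B]
  · intro Z hZ
    have hZW : ∀ j, Z.mulVec (b j : Fin n → F) ∈ W := by
      intro j
      rw [hmem, Matrix.mulVec_mulVec, ← hZ, ← Matrix.mulVec_mulVec, (hmem _).mp (b j).2,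
        Matrix.mulVec_smul]
    let X : Matrix (Fin (Module.finrank F W)) (Fin (Module.finrank F W)) F :=
      Matrix.of fun k j => b.repr ⟨Z.mulVec (b j : Fin n → F), hZW j⟩ k
    have hZB : Z * B = B * X := by
      ext i j
      rw [hBcol]
      have h1 := b.sum_repr ⟨Z.mulVec (b j : Fin n → F), hZW j⟩
      have h2 := congrArg (fun y : W => (y : Fin n → F) i) h1
      simp only [Submodule.coe_sum, Submodule.coe_smul, Finset.sum_apply, Pi.smul_apply,
        smul_eq_mul] at h2
      rw [← h2]
      simp [Matrix.mul_apply, B, X, mul_comm]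
    rw [Matrix.mul_assoc, hZB, ← Matrix.mul_assoc (LinearMap.toMatrix' g), hCB, Matrix.one_mul]

end Vale.Agent.Lib.P184.Lin
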