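import Mathlib

/-!
# P184 / linear groups, module 1: the entrywise size of a matrix for an absolute value

FROZEN STATEMENTS (do not change them; fill the sorries).

`esize v A = ∑ i, ∑ j, v (A i j)`.

ROUTE.
* `esize_mul_le`: `v ((A * B) i k) ≤ ∑ j, v (A i j) * v (B j k)` (`AbsoluteValue.sum_le` or induction with
  `v.add_le`, `v.map_mul`), and `∑ i k j, a i j * b j k ≤ (∑ i j, a i j) * (∑ j' k, b j' k)` because all terms
  are nonnegative (expand the product with `Finset.sum_mul_sum`, keep the diagonal `j = j'`).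
* `abv_det_le`: `Matrix.det_apply`, `v (∑ σ, sign σ • ∏ i, A (σ i) i) ≤ ∑ σ, ∏ i, v (A (σ i) i)`
  (`v` of a sign is `1`: `AbsoluteValue.map_neg`, `map_one`; `Int.units_eq_one_or`),
  `∑ σ : Perm, ∏ i, a (σ i) i ≤ ∑ f : Fin d → Fin d, ∏ i, a (f i) i = ∏ i, ∑ j, a j i`
  (`Finset.prod_univ_sum` / `Fintype.piFinset`; injectivity of `σ ↦ ⇑σ`), and each factor is `≤ esize v A`.
-/

namespace Vale.Agent.Lib.P184.Lin

open scoped BigOperators

variable {F : Type*} [Field F] (v : AbsoluteValue F ℝ)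

/-- the entrywise size of a matrix -/
noncomputable def esize {l m : Type*} [Fintype l] [Fintype m] (A : Matrix l m F) : ℝ :=
  ∑ i, ∑ j, v (A i j)

theorem esize_nonneg {l m : Type*} [Fintype l] [Fintype m] (A : Matrix l m F) : 0 ≤ esize v A := by
  unfold esize
  exact Finset.sum_nonneg (fun i _ => Finset.sum_nonneg (fun j _ => v.nonneg _))

theorem esize_pos {l m : Type*} [Fintype l] [Fintype m] (A : Matrix l m F) (hA : A ≠ 0) :
    0 < esize v A := by
  have hex : ∃ i j, A i j ≠ 0 := by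
    by_contra hcon
    apply hA
    ext i j
    by_contra h
    exact hcon ⟨i, j, h⟩
  obtain ⟨i, j, hij⟩ := hex
  have h1 : 0 < v (A i j) := v.pos hij
  have h2 : v (A i j) ≤ ∑ j', v (A i j') :=
    Finset.single_le_sum (f := fun j' => v (A i j')) (fun j' _ => v.nonneg _) (Finset.mem_univ j)
  have h3 : ∑ j', v (A i j') ≤ ∑ i', ∑ j', v (A i' j') :=
    Finset.single_le_sum (f := fun i' => ∑ j', v (A i' j'))
      (fun i' _ => Finset.sum_nonneg (fun j' _ => v.nonneg _)) (Finset.mem_univ i)
  unfold esize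
  linarith

private lemma abv_sum_le {ι : Type*} (s : Finset ι) (f : ι → F) :
    v (∑ i ∈ s, f i) ≤ ∑ i ∈ s, v (f i) := by
  classical
  induction s using Finset.induction_on with
  | empty => simp
  | insert a s ha ih =>
    rw [Finset.sum_insert ha, Finset.sum_insert ha]
    exact le_trans (v.add_le _ _) (by linarith)

theorem esize_mul_le {l m n : Type*} [Fintype l] [Fintype m] [Fintype n]
    (A : Matrix l m F) (B : Matrix m n F) : esize v (A * B) ≤ esize v A * esize v B := by
  unfold esize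
  have h1 : ∀ i k, v ((A * B) i k) ≤ ∑ j, v (A i j) * v (B j k) := by
    intro i k
    rw [Matrix.mul_apply]
    refine le_trans (abv_sum_le v _ _) (le_of_eq ?_)
    exact Finset.sum_congr rfl (fun j _ => v.map_mul _ _)
  have hB : ∀ j, ∑ k, v (B j k) ≤ ∑ j', ∑ k, v (B j' k) := fun j =>
    Finset.single_le_sum (f := fun j' => ∑ k, v (B j' k))
      (fun j' _ => Finset.sum_nonneg (fun k _ => v.nonneg _)) (Finset.mem_univ j)
  calc ∑ i, ∑ k, v ((A * B) i k)
      ≤ ∑ i, ∑ k, ∑ j, v (A i j) * v (B j k) :=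
        Finset.sum_le_sum (fun i _ => Finset.sum_le_sum (fun k _ => h1 i k))
    _ = ∑ i, ∑ j, v (A i j) * ∑ k, v (B j k) := by
        apply Finset.sum_congr rfl
        intro i _
        rw [Finset.sum_comm]
        apply Finset.sum_congr rfl
        intro j _
        rw [Finset.mul_sum]
    _ ≤ ∑ i, ∑ j, v (A i j) * ∑ j', ∑ k, v (B j' k) :=
        Finset.sum_le_sum (fun i _ => Finset.sum_le_sum (fun j _ =>
          mul_le_mul_of_nonneg_left (hB j) (v.nonneg _)))
    _ = (∑ i, ∑ j, v (A i j)) * ∑ j', ∑ k, v (B j' k) := by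
        rw [Finset.sum_mul]
        apply Finset.sum_congr rfl
        intro i _
        rw [Finset.sum_mul]

theorem abv_det_le {d : ℕ} (A : Matrix (Fin d) (Fin d) F) : v A.det ≤ esize v A ^ d := by
  classical
  rw [Matrix.det_apply]
  have h1 : ∀ σ : Equiv.Perm (Fin d), v (Equiv.Perm.sign σ • ∏ i, A (σ i) i)
      = ∏ i, v (A (σ i) i) := by
    intro σ
    rcases Int.units_eq_one_or (Equiv.Perm.sign σ) with h | h
    · rw [h, one_smul, map_prod]
    · rw [h, Units.neg_smul, one_smul, v.map_neg, map_prod]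
  have h2 : v (∑ σ : Equiv.Perm (Fin d), Equiv.Perm.sign σ • ∏ i, A (σ i) i)
      ≤ ∑ σ : Equiv.Perm (Fin d), ∏ i, v (A (σ i) i) := by
    refine le_trans (abv_sum_le v _ _) (le_of_eq ?_)
    exact Finset.sum_congr rfl (fun σ _ => h1 σ)
  have h3 : ∑ σ : Equiv.Perm (Fin d), ∏ i, v (A (σ i) i)
      ≤ ∑ f : Fin d → Fin d, ∏ i, v (A (f i) i) := by
    have hinj : Function.Injective (fun σ : Equiv.Perm (Fin d) => (σ : Fin d → Fin d)) :=
      fun σ τ h => Equiv.ext (congrFun h)
    have e : ∑ σ : Equiv.Perm (Fin d), ∏ i, v (A (σ i) i)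
        = ∑ f ∈ Finset.univ.image (fun σ : Equiv.Perm (Fin d) => (σ : Fin d → Fin d)),
            ∏ i, v (A (f i) i) := by
      rw [Finset.sum_image (fun σ _ τ _ h => hinj h)]
    rw [e]
    exact Finset.sum_le_sum_of_subset_of_nonneg (Finset.subset_univ _)
      (fun f _ _ => Finset.prod_nonneg (fun i _ => v.nonneg _))
  have h4 : ∑ f : Fin d → Fin d, ∏ i, v (A (f i) i) = ∏ i, ∑ j, v (A j i) := by
    have h := (Finset.prod_univ_sum (fun _ : Fin d => (Finset.univ : Finset (Fin d)))
      (fun i j => v (A j i))).symm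
    rw [Fintype.piFinset_univ] at h
    exact h
  have h5 : ∏ i : Fin d, ∑ j, v (A j i) ≤ esize v A ^ d := by
    have hle : ∀ i : Fin d, ∑ j, v (A j i) ≤ esize v A := by
      intro i
      unfold esize
      apply Finset.sum_le_sum
      intro j _
      exact Finset.single_le_sum (f := fun i' => v (A j i')) (fun i' _ => v.nonneg _)
        (Finset.mem_univ i)
    calc ∏ i : Fin d, ∑ j, v (A j i) ≤ ∏ _i : Fin d, esize v A :=
          Finset.prod_le_prod (fun i _ => Finset.sum_nonneg (fun j _ => v.nonneg _))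
            (fun i _ => hle i)
      _ = esize v A ^ d := by simp
  linarith [h2, h3, h4.le, h5]

end Vale.Agent.Lib.P184.Lin
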