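import Vale.Agent.Lib.P184.Centralizer
import Vale.Agent.Lib.P184.Lin.Size
import Vale.Agent.Lib.P184.Lin.Section
import Vale.Agent.Lib.P184.Lin.Places

/-!
# P184 / linear groups, module 4: the eigenvalue criterion

FROZEN STATEMENTS (do not change them; fill the sorries).

ROUTE for `trace_vanish_of_eigenvalue`.  `M h := (ρ h : Matrix (Fin n) (Fin n) F)`.  Take `d, B, C` from
`exists_eigen_section (M g) lam w hw hev`.  Put `A h := C * M h * B` (a `d × d` matrix),
`φ h := Real.log (v (A h).det)`.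
* If `a, b` commute with `g` then `M b * M g = M g * M b`, so `M b * B = B * A b` and
  `A (a * b) = C * M a * M b * B = C * M a * B * A b = A a * A b`; also `A 1 = C * B = 1`.  Hence
  `(A a).det ≠ 0` for `a` commuting with `g` (`A a * A a⁻¹ = 1`), and `φ (a * b) = φ a + φ b`
  (`Matrix.det_mul`, `Real.log_mul`).
* `A g = C * (lam • B) = lam • 1`, `det = lam ^ d`, `lam ≠ 0` (else `M g *ᵥ w = 0` with `M g` invertible),
  `φ g = d * log (v lam) ≠ 0` because `v lam > 0`, `v lam ≠ 1`, `d > 0`.
* `L h := esize v C * esize v (M h) * esize v B`; `v (A h).det ≤ L h ^ d` by `abv_det_le`, `esize_mul_le`;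
  `L (h * k) ≤ L h * L k` because `1 ≤ esize v B * esize v C`  (from `1 ≤ esize v (1 : d × d) =
  esize v (C * B) ≤ esize v C * esize v B`, `d > 0`);  `L h > 0`.
  `ℓ₀ h := d * log (L h)` is subadditive, `ℓ h := max (ℓ₀ h) (ℓ₀ h⁻¹)` is subadditive, `φ z ≤ ℓ₀ z`,
  `- φ z = φ z⁻¹ ≤ ℓ₀ z⁻¹`, so `|φ z| ≤ ℓ z`.
* Apply `trace_vanish_of_centralizer_hom e hsum hidem ℓ _ g φ _ _ _`.
-/

namespace Vale.Agent.Lib.P184.Lin

open scoped BigOperators

private lemma one_le_esize_one {F : Type*} [Field F] (v : AbsoluteValue F ℝ) {d : ℕ} (hd : 0 < d) :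
    1 ≤ esize v (1 : Matrix (Fin d) (Fin d) F) := by
  unfold esize
  have h1 : ∑ j, v ((1 : Matrix (Fin d) (Fin d) F) ⟨0, hd⟩ j) ≤
      ∑ i, ∑ j, v ((1 : Matrix (Fin d) (Fin d) F) i j) :=
    Finset.single_le_sum (f := fun i => ∑ j, v ((1 : Matrix (Fin d) (Fin d) F) i j))
      (fun i _ => Finset.sum_nonneg fun j _ => v.nonneg _) (Finset.mem_univ _)
  have h2 : v ((1 : Matrix (Fin d) (Fin d) F) ⟨0, hd⟩ ⟨0, hd⟩) ≤
      ∑ j, v ((1 : Matrix (Fin d) (Fin d) F) ⟨0, hd⟩ j) :=
    Finset.single_le_sum (f := fun j => v ((1 : Matrix (Fin d) (Fin d) F) ⟨0, hd⟩ j))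
      (fun j _ => v.nonneg _) (Finset.mem_univ _)
  rw [Matrix.one_apply_eq, map_one] at h2
  linarith

theorem trace_vanish_of_eigenvalue {G : Type*} [Group G] {q : ℕ} (e : Matrix (Fin q) (Fin q) (G → ℂ))
    (hsum : ∀ i j, Summable fun g => ‖e i j g‖)
    (hidem : ∀ i j g, ∑ k, ∑' h, e i k h * e k j (h⁻¹ * g) = e i j g)
    {F : Type*} [Field F] (v : AbsoluteValue F ℝ) {n : ℕ}
    (ρ : G →* Matrix.GeneralLinearGroup (Fin n) F) (g : G) (lam : F) (w : Fin n → F) (hw : w ≠ 0)
    (hev : (ρ g : Matrix (Fin n) (Fin n) F).mulVec w = lam • w) (hlam : v lam ≠ 1) :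
    ∑' x : (ConjClasses.mk g).carrier, ∑ i, e i i x = 0 := by
  classical
  obtain ⟨d, B, C, hd, hCB, hMB, hZ⟩ :=
    exists_eigen_section (ρ g : Matrix (Fin n) (Fin n) F) lam w hw hev
  set M : G → Matrix (Fin n) (Fin n) F := fun h => (ρ h : Matrix (Fin n) (Fin n) F) with hM
  have hMmul : ∀ a b, M (a * b) = M a * M b := by
    intro a b
    simp only [hM, map_mul, Units.val_mul]
  have hMone : M 1 = 1 := by
    simp only [hM, map_one, Units.val_one]
  set A : G → Matrix (Fin d) (Fin d) F := fun h => C * M h * B with hA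
  have hAmul : ∀ a b, Commute b g → A (a * b) = A a * A b := by
    intro a b hb
    have h1 : M b * M g = M g * M b := by
      rw [← hMmul, ← hMmul, hb.eq]
    have h2 := hZ (M b) h1
    simp only [hA]
    rw [hMmul]
    calc C * (M a * M b) * B = C * M a * (M b * B) := by
          simp only [Matrix.mul_assoc]
      _ = C * M a * (B * (C * M b * B)) := by rw [h2]
      _ = C * M a * B * (C * M b * B) := by simp only [Matrix.mul_assoc]
  have hAone : A 1 = 1 := by
    simp only [hA, hMone, Matrix.mul_one, hCB]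
  have hdet : ∀ a, Commute a g → (A a).det ≠ 0 := by
    intro a ha h0
    have h1 : A a * A a⁻¹ = 1 := by
      rw [← hAmul a a⁻¹ ha.inv_left, mul_inv_cancel, hAone]
    have h2 := congrArg Matrix.det h1
    rw [Matrix.det_mul, h0, zero_mul, Matrix.det_one] at h2
    exact zero_ne_one h2
  have hAg : A g = lam • (1 : Matrix (Fin d) (Fin d) F) := by
    simp only [hA]
    rw [Matrix.mul_assoc, hMB, Matrix.mul_smul, hCB]
  have hdetg : (A g).det = lam ^ d := by
    rw [hAg, Matrix.det_smul, Matrix.det_one, Fintype.card_fin, mul_one]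
  have hlam0 : lam ≠ 0 := by
    intro h0
    apply hdet g (Commute.refl g)
    rw [hdetg, h0, zero_pow hd.ne']
  set φ : G → ℝ := fun h => Real.log (v (A h).det) with hφ
  have hadd : ∀ a b, Commute a g → Commute b g → φ (a * b) = φ a + φ b := by
    intro a b ha hb
    simp only [hφ]
    rw [hAmul a b hb, Matrix.det_mul, map_mul, Real.log_mul]
    · exact (v.ne_zero_iff).mpr (hdet a ha)
    · exact (v.ne_zero_iff).mpr (hdet b hb)
  have hne : φ g ≠ 0 := by
    simp only [hφ]
    rw [hdetg, map_pow, Real.log_pow]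
    apply mul_ne_zero
    · exact_mod_cast hd.ne'
    · exact Real.log_ne_zero_of_pos_of_ne_one (v.pos hlam0) hlam
  -- sizes
  have hone_ne : (1 : Matrix (Fin d) (Fin d) F) ≠ 0 := by
    intro h0
    have := congrFun (congrFun h0 ⟨0, hd⟩) ⟨0, hd⟩
    simp at this
  have hC0 : C ≠ 0 := by
    intro h0
    rw [h0, Matrix.zero_mul] at hCB
    exact hone_ne hCB.symm
  have hB0 : B ≠ 0 := by
    intro h0
    rw [h0, Matrix.mul_zero] at hCB
    exact hone_ne hCB.symm
  have hM0 : ∀ h, M h ≠ 0 := by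
    intro h h0
    have h1 : M h * M h⁻¹ = 1 := by rw [← hMmul, mul_inv_cancel, hMone]
    rw [h0, Matrix.zero_mul] at h1
    apply hw
    have h2 : (1 : Matrix (Fin n) (Fin n) F).mulVec w = w := Matrix.one_mulVec w
    rw [← h1, Matrix.zero_mulVec] at h2
    exact h2.symm
  have eC := esize_pos v C hC0
  have eB := esize_pos v B hB0
  have eM := fun h => esize_pos v (M h) (hM0 h)
  have hBC : 1 ≤ esize v B * esize v C := by
    have h1 := one_le_esize_one v hd
    have h2 := esize_mul_le v C B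
    rw [hCB] at h2
    nlinarith
  set L : G → ℝ := fun h => esize v C * esize v (M h) * esize v B with hL
  have hLpos : ∀ h, 0 < L h := fun h => mul_pos (mul_pos eC (eM h)) eB
  have hLmul : ∀ h k, L (h * k) ≤ L h * L k := by
    intro h k
    simp only [hL]
    rw [hMmul]
    have h1 := esize_mul_le v (M h) (M k)
    have h2 : esize v C * esize v (M h * M k) * esize v B ≤
        esize v C * (esize v (M h) * esize v (M k)) * esize v B := by
      apply mul_le_mul_of_nonneg_right _ eB.le
      exact mul_le_mul_of_nonneg_left h1 eC.le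
    have h3 : 0 < esize v C * (esize v (M h) * esize v (M k)) * esize v B :=
      mul_pos (mul_pos eC (mul_pos (eM h) (eM k))) eB
    have h4 : esize v C * esize v (M h) * esize v B * (esize v C * esize v (M k) * esize v B) =
        (esize v C * (esize v (M h) * esize v (M k)) * esize v B) * (esize v B * esize v C) := by
      ring
    rw [h4]
    nlinarith
  have hdetL : ∀ h, v (A h).det ≤ L h ^ d := by
    intro h
    refine (abv_det_le v (A h)).trans ?_
    apply pow_le_pow_left₀ (esize_nonneg v _)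
    simp only [hA, hL]
    refine (esize_mul_le v (C * M h) B).trans ?_
    exact mul_le_mul_of_nonneg_right (esize_mul_le v C (M h)) eB.le
  set l0 : G → ℝ := fun h => d * Real.log (L h) with hl0
  have hl0sub : ∀ a b, l0 (a * b) ≤ l0 a + l0 b := by
    intro a b
    simp only [hl0]
    have h1 : Real.log (L (a * b)) ≤ Real.log (L a) + Real.log (L b) := by
      rw [← Real.log_mul (hLpos a).ne' (hLpos b).ne']
      exact Real.log_le_log (hLpos _) (hLmul a b)
    have hd' : (0 : ℝ) ≤ d := by positivity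
    nlinarith
  have hφle : ∀ z, Commute z g → φ z ≤ l0 z := by
    intro z hz
    simp only [hφ, hl0]
    rw [← Real.log_pow]
    exact Real.log_le_log (v.pos (hdet z hz)) (hdetL z)
  have hφinv : ∀ z, Commute z g → φ z⁻¹ = - φ z := by
    intro z hz
    have h1 := hadd z z⁻¹ hz hz.inv_left
    rw [mul_inv_cancel] at h1
    have h2 : φ 1 = 0 := by
      simp only [hφ, hAone, Matrix.det_one, map_one, Real.log_one]
    linarith
  refine trace_vanish_of_centralizer_hom e hsum hidem (fun h => max (l0 h) (l0 h⁻¹)) ?_ g φ hadd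
    ?_ hne
  · intro a b
    apply max_le
    · have := hl0sub a b
      have h1 := le_max_left (l0 a) (l0 a⁻¹)
      have h2 := le_max_left (l0 b) (l0 b⁻¹)
      linarith
    · rw [mul_inv_rev]
      have := hl0sub b⁻¹ a⁻¹
      have h1 := le_max_right (l0 a) (l0 a⁻¹)
      have h2 := le_max_right (l0 b) (l0 b⁻¹)
      linarith
  · intro z hz
    rw [abs_le]
    constructor
    · have h1 := hφle z⁻¹ hz.inv_left
      rw [hφinv z hz] at h1
      have h2 := le_max_right (l0 z) (l0 z⁻¹)
      linarith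
    · exact (hφle z hz).trans (le_max_left _ _)

theorem trace_vanish_of_numberField {G : Type*} [Group G] {q : ℕ} (e : Matrix (Fin q) (Fin q) (G → ℂ))
    (hsum : ∀ i j, Summable fun g => ‖e i j g‖)
    (hidem : ∀ i j g, ∑ k, ∑' h, e i k h * e k j (h⁻¹ * g) = e i j g)
    {K : Type*} [Field K] [NumberField K] {n : ℕ}
    (ρ : G →* Matrix.GeneralLinearGroup (Fin n) K) (g : G) (lam : K) (w : Fin n → K) (hw : w ≠ 0)
    (hev : (ρ g : Matrix (Fin n) (Fin n) K).mulVec w = lam • w)
    (hlam : ∀ k : ℕ, 0 < k → lam ^ k ≠ 1) :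
    ∑' x : (ConjClasses.mk g).carrier, ∑ i, e i i x = 0 := by
  obtain ⟨v, hv⟩ := exists_abv_ne_one lam hlam
  exact trace_vanish_of_eigenvalue e hsum hidem v ρ g lam w hw hev hv

end Vale.Agent.Lib.P184.Lin
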