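import Vale.Agent.Lib.P184.Lin.Main

/-!
# P184 / linear groups, module 5: number fields, elements that are not quasi-unipotent

Statements frozen by helper10; proofs by helper12 (complete).  `exists_eigenvalue_not_root_of_unity` has `L` in the universe of `K` (the splitting field; universe fix by
helper29); `exists_eigenvalue_not_root_of_unity_anyUniverse` is the originally frozen statement with a free
universe for `L`, obtained by transport to `ULift` of a subfield of `ℂ`.

ROUTE for `exists_eigenvalue_not_root_of_unity`.  `χ := M.charpoly`, `L := χ.SplittingField`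
(`Algebra K L`, `FiniteDimensional K L`; `NumberField L` from `CharZero L` (`charZero_of_injective_algebraMap`)
and `FiniteDimensional ℚ L` (`FiniteDimensional.trans ℚ K L`, needs `Algebra ℚ L`, `IsScalarTower ℚ K L`:
both automatic in characteristic zero (`DivisionRing.toRatAlgebra`, `IsScalarTower.rat`))).
`χ.map (algebraMap K L)` splits: it is the product of `X - C a` over its roots (`Polynomial.Splits`,
`Polynomial.eq_prod_roots_of_splits_id` / `Polynomial.Splits.eq_prod_roots`, `χ` is monic of degree `n`).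
Suppose every root `a` satisfies `a ^ k = 1` for some `k > 0`.  Take `m > 0` a common multiple (product over the
finite multiset of roots).  Then `X - C a ∣ X ^ m - 1` for each root, so `χ.map _ ∣ (X ^ m - 1) ^ n`
(`Multiset.prod` of `n` factors each dividing `X ^ m - 1`), and Cayley-Hamilton (`Matrix.aeval_self_charpoly`,
`Matrix.charpoly_map`) gives `((M.map (algebraMap K L)) ^ m - 1) ^ n = 0`, hence `(M ^ m - 1) ^ n = 0` by
injectivity of `Matrix.map` for the injective `algebraMap K L`: contradiction with `hM`.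
So there is a root `lam` with `lam ^ k ≠ 1` for all `k > 0`; `det (lam • 1 - M_L) = eval lam charpoly = 0`
(`Matrix.eval_charpoly` / `Matrix.charpoly` unfolding, `Matrix.eval_det`), and
`Matrix.exists_mulVec_eq_zero_iff` gives `w ≠ 0` with `M_L *ᵥ w = lam • w`.
(Alternatively `Module.End.hasEigenvalue_iff_isRoot_charpoly` / `Matrix.mem_spectrum_iff_isRoot_charpoly`.)

`trace_vanish_of_not_quasiunipotent` follows with
`ρ' := (Matrix.GeneralLinearGroup.map (algebraMap K L)).comp ρ` and `trace_vanish_of_numberField`.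
-/

namespace Vale.Agent.Lib.P184.Lin

open scoped BigOperators
open Polynomial

theorem exists_common_exponent {L : Type*} [Field L] (s : Multiset L)
    (h : ∀ a ∈ s, ∃ k : ℕ, 0 < k ∧ a ^ k = 1) : ∃ m : ℕ, 0 < m ∧ ∀ a ∈ s, a ^ m = 1 := by
  induction s using Multiset.induction_on with
  | empty => exact ⟨1, one_pos, fun a ha => absurd ha (Multiset.notMem_zero a)⟩
  | cons b s ih =>
    obtain ⟨m, hm0, hm⟩ := ih fun a ha => h a (Multiset.mem_cons_of_mem ha)
    obtain ⟨k, hk0, hk⟩ := h b (Multiset.mem_cons_self b s)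
    refine ⟨k * m, Nat.mul_pos hk0 hm0, fun a ha => ?_⟩
    rcases Multiset.mem_cons.mp ha with rfl | ha'
    · rw [pow_mul, hk, one_pow]
    · rw [mul_comm, pow_mul, hm a ha', one_pow]

universe u

theorem exists_eigenvalue_not_root_of_unity {K : Type u} [Field K] [NumberField K] {n : ℕ}
    (M : Matrix (Fin n) (Fin n) K) (hM : ∀ m : ℕ, 0 < m → (M ^ m - 1) ^ n ≠ 0) :
    ∃ (L : Type u) (_ : Field L) (_ : NumberField L) (f : K →+* L) (lam : L) (w : Fin n → L), w ≠ 0 ∧
      (M.map f).mulVec w = lam • w ∧ ∀ k : ℕ, 0 < k → lam ^ k ≠ 1 := by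
  classical
  let L := M.charpoly.SplittingField
  have : FiniteDimensional ℚ L := FiniteDimensional.trans ℚ K L
  have : NumberField L := {}
  let f : K →+* L := algebraMap K L
  have hcp : (M.map f).charpoly = M.charpoly.map f := Matrix.charpoly_map M f
  have hsp : ((M.map f).charpoly).Splits := by
    rw [hcp]; exact SplittingField.splits M.charpoly
  have hmon : (M.map f).charpoly.Monic := Matrix.charpoly_monic _
  have hprod := hsp.eq_prod_roots_of_monic hmon
  have hcard : Multiset.card (M.map f).charpoly.roots = n := by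
    rw [← hsp.natDegree_eq_card_roots]; simp
  by_contra hcon
  have hroot : ∀ a ∈ (M.map f).charpoly.roots, ∃ k : ℕ, 0 < k ∧ a ^ k = 1 := by
    intro a ha
    by_contra hno
    have hno' : ∀ k : ℕ, 0 < k → a ^ k ≠ 1 := fun k hk h1 => hno ⟨k, hk, h1⟩
    have hev : (M.map f).charpoly.eval a = 0 := (Polynomial.mem_roots'.mp ha).2
    rw [Matrix.eval_charpoly] at hev
    obtain ⟨w, hw, hw2⟩ := Matrix.exists_mulVec_eq_zero_iff.2 hev
    refine hcon ⟨L, inferInstance, inferInstance, f, a, w, hw, ?_, hno'⟩
    rw [Matrix.sub_mulVec, sub_eq_zero] at hw2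
    rw [← hw2]
    simp [Matrix.scalar_apply]
  obtain ⟨m, hm0, hm⟩ := exists_common_exponent _ hroot
  have hdvd : (M.map f).charpoly ∣ ((X : L[X]) ^ m - 1) ^ n := by
    rw [hprod]
    have h1 := Multiset.prod_dvd_prod_of_dvd (S := (M.map f).charpoly.roots)
      (fun a : L => (X : L[X]) - C a) (fun _ => (X : L[X]) ^ m - 1) (by
        intro a ha
        rw [Polynomial.dvd_iff_isRoot]
        simp [hm a ha])
    rw [Multiset.map_const', Multiset.prod_replicate, hcard] at h1
    exact h1
  have hzero : ((M.map f) ^ m - 1) ^ n = 0 := by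
    obtain ⟨r, hr⟩ := hdvd
    have h2 := congrArg (Polynomial.aeval (M.map f)) hr
    rw [map_mul, Matrix.aeval_self_charpoly, zero_mul] at h2
    simpa using h2
  have hmap : ((M ^ m - 1) ^ n).map f = ((M.map f) ^ m - 1) ^ n := by
    have h3 : f.mapMatrix ((M ^ m - 1) ^ n) = (f.mapMatrix M ^ m - 1) ^ n := by
      rw [map_pow, map_sub, map_pow, map_one]
    exact h3
  apply hM m hm0
  have hinj : Function.Injective (fun A : Matrix (Fin n) (Fin n) K => A.map f) :=
    Matrix.map_injective f.injective
  apply hinj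
  simp only
  rw [hmap, hzero]
  simp

theorem exists_eigenvalue_not_root_of_unity_anyUniverse {K : Type*} [Field K] [NumberField K] {n : ℕ}
    (M : Matrix (Fin n) (Fin n) K) (hM : ∀ m : ℕ, 0 < m → (M ^ m - 1) ^ n ≠ 0) :
    ∃ (L : Type _) (_ : Field L) (_ : NumberField L) (f : K →+* L) (lam : L) (w : Fin n → L), w ≠ 0 ∧
      (M.map f).mulVec w = lam • w ∧ ∀ k : ℕ, 0 < k → lam ^ k ≠ 1 := by
  obtain ⟨L, _, _, f, lam, w, hw, hev, hlam⟩ := exists_eigenvalue_not_root_of_unity M hM
  obtain ⟨φ⟩ := (inferInstance : Nonempty (L →+* ℂ))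
  let e : L ≃+* ULift φ.fieldRange := φ.rangeRestrictFieldEquiv.trans ULift.ringEquiv.symm
  have hnf : NumberField (ULift φ.fieldRange) := NumberField.of_ringEquiv _ _ e
  refine ⟨ULift φ.fieldRange, inferInstance, hnf, (e : L →+* ULift φ.fieldRange).comp f, e lam,
    fun i => e (w i), ?_, ?_, ?_⟩
  · intro h0
    apply hw
    funext i
    have := congrFun h0 i
    simpa using this
  · funext i
    have h1 := congrArg e (congrFun hev i)
    simp only [Matrix.mulVec, dotProduct, Matrix.map_apply, Pi.smul_apply, smul_eq_mul, map_sum,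
      map_mul] at h1 ⊢
    simpa using h1
  · intro k hk h1
    apply hlam k hk
    apply e.injective
    rw [map_pow, h1, map_one]

theorem trace_vanish_of_not_quasiunipotent {G : Type*} [Group G] {q : ℕ}
    (e : Matrix (Fin q) (Fin q) (G → ℂ))
    (hsum : ∀ i j, Summable fun g => ‖e i j g‖)
    (hidem : ∀ i j g, ∑ k, ∑' h, e i k h * e k j (h⁻¹ * g) = e i j g)
    {K : Type*} [Field K] [NumberField K] {n : ℕ}
    (ρ : G →* Matrix.GeneralLinearGroup (Fin n) K) (g : G)
    (hg : ∀ m : ℕ, 0 < m → ((ρ g : Matrix (Fin n) (Fin n) K) ^ m - 1) ^ n ≠ 0) :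
    ∑' x : (ConjClasses.mk g).carrier, ∑ i, e i i x = 0 := by
  obtain ⟨L, _, _, f, lam, w, hw, hev, hlam⟩ :=
    exists_eigenvalue_not_root_of_unity (ρ g : Matrix (Fin n) (Fin n) K) hg
  exact trace_vanish_of_numberField e hsum hidem ((Matrix.GeneralLinearGroup.map f).comp ρ) g lam w hw
    (by simpa using hev) hlam

end Vale.Agent.Lib.P184.Lin
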